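import Mathlib

/-!
# Colength of ideals generated by monomials in a regular sequence

`finrank_quot_mon`: if `b` is a nonzerodivisor of the `k`-algebra `A` and `a` is a nonzerodivisor
modulo `b`, then for every finite lower set `T` of exponents the quotient of `A` by the ideal
generated by the monomials `a ^ i * b ^ j` with exponent outside `T` has dimension
`T.card * finrank k (A ⧸ (a, b))`.
-/

open Module

namespace Vale.Agent.P298.H990

section mon

variable {A : Type*} [CommRing A]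

/-- The ideal generated by the monomials `a ^ i * b ^ j` with exponent outside `T`. -/
def monIdeal (a b : A) (T : Set (ℕ × ℕ)) : Ideal A :=
  Ideal.span ((fun p : ℕ × ℕ => a ^ p.1 * b ^ p.2) '' Tᶜ)

theorem mon_mem {a b : A} {T : Set (ℕ × ℕ)} {p : ℕ × ℕ} (hp : p ∉ T) :
    a ^ p.1 * b ^ p.2 ∈ monIdeal a b T :=
  Ideal.subset_span ⟨p, hp, rfl⟩

theorem dvd_of_pow_dvd_mul {a b : A} (hb : ∀ x, b * x = 0 → x = 0)
    (hab : ∀ x, b ∣ a * x → b ∣ x) (n : ℕ) : ∀ x, b ^ n ∣ a * x → b ^ n ∣ x := by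
  induction n with
  | zero => intro x _; simp
  | succ n ih =>
    intro x hx
    obtain ⟨y, rfl⟩ := hab x ((dvd_pow_self b (Nat.succ_ne_zero n)).trans hx)
    obtain ⟨w, hw⟩ := hx
    have h : a * y = b ^ n * w := by
      have h0 : b * (a * y - b ^ n * w) = 0 := by
        rw [mul_sub, sub_eq_zero]
        calc b * (a * y) = a * (b * y) := by ring
          _ = b ^ (n + 1) * w := hw
          _ = b * (b ^ n * w) := by ring
      exact sub_eq_zero.1 (hb _ h0)
    obtain ⟨v, rfl⟩ := ih y ⟨w, h⟩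
    exact ⟨v, by ring⟩

theorem dvd_of_pow_dvd_pow_mul {a b : A} (hb : ∀ x, b * x = 0 → x = 0)
    (hab : ∀ x, b ∣ a * x → b ∣ x) (n m : ℕ) : ∀ x, b ^ n ∣ a ^ m * x → b ^ n ∣ x := by
  induction m with
  | zero => intro x hx; simpa using hx
  | succ m ih =>
    intro x hx
    have h : b ^ n ∣ a ^ m * (a * x) := by
      convert hx using 1; ring
    exact dvd_of_pow_dvd_mul hb hab n x (ih _ h)

theorem eq_zero_of_pow {b : A} (hb : ∀ x, b * x = 0 → x = 0) (n : ℕ) :
    ∀ x, b ^ n * x = 0 → x = 0 := by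
  induction n with
  | zero => intro x hx; simpa using hx
  | succ n ih =>
    intro x hx
    refine ih x (hb _ ?_)
    rw [← hx]; ring

/-- The colon ideal of a maximal monomial. -/
theorem colon_aux {a b : A} (hb : ∀ x, b * x = 0 → x = 0)
    (hab : ∀ x, b ∣ a * x → b ∣ x) {T : Set (ℕ × ℕ)} (hT : IsLowerSet T) {i j : ℕ}
    (hij : (i, j) ∈ T) (hmax : ∀ p ∈ T, p.1 ≤ i ∧ (p.1 = i → p.2 ≤ j)) (x : A) :
    a ^ i * b ^ j * x ∈ monIdeal a b T ↔ x ∈ Ideal.span {a, b} := by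
  constructor
  · intro hx
    have hle : monIdeal a b T ≤ Ideal.span {a ^ (i + 1)} ⊔ Ideal.span {b ^ (j + 1)} := by
      refine Ideal.span_le.2 ?_
      rintro _ ⟨⟨p, q⟩, hp, rfl⟩
      rcases Nat.lt_or_ge i p with h | h
      · refine Ideal.mem_sup_left (Ideal.mem_span_singleton.2 ?_)
        exact (pow_dvd_pow a h).trans (dvd_mul_right _ _)
      · refine Ideal.mem_sup_right (Ideal.mem_span_singleton.2 ?_)
        have hq : j + 1 ≤ q := by
          by_contra hq
          exact hp (hT (show ((p, q) : ℕ × ℕ) ≤ (i, j) from ⟨h, by simpa using by omega⟩) hij)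
        exact (pow_dvd_pow b hq).trans (dvd_mul_left _ _)
    obtain ⟨u, hu, v, hv, huv⟩ := Submodule.mem_sup.1 (hle hx)
    obtain ⟨y, rfl⟩ := Ideal.mem_span_singleton.1 hu
    obtain ⟨z, rfl⟩ := Ideal.mem_span_singleton.1 hv
    have h1 : b ^ (j + 1) ∣ a ^ i * (b ^ j * x - a * y) := by
      refine ⟨z, ?_⟩
      rw [mul_sub, sub_eq_iff_eq_add]
      calc a ^ i * (b ^ j * x) = a ^ i * b ^ j * x := by ring
        _ = a ^ (i + 1) * y + b ^ (j + 1) * z := huv.symm
        _ = b ^ (j + 1) * z + a ^ i * (a * y) := by ring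
    obtain ⟨w, hw⟩ := dvd_of_pow_dvd_pow_mul hb hab _ _ _ h1
    have h2 : b ^ j ∣ a * y := by
      refine ⟨x - b * w, ?_⟩
      have h3 : a * y = b ^ j * x - b ^ (j + 1) * w := by rw [← hw]; ring
      rw [h3]; ring
    obtain ⟨y', rfl⟩ := dvd_of_pow_dvd_mul hb hab _ _ h2
    have h4 : x - a * y' - b * w = 0 := by
      refine eq_zero_of_pow hb j _ ?_
      have : b ^ j * (x - a * y' - b * w) = b ^ j * x - a * (b ^ j * y') - b ^ (j + 1) * w := by
        ring
      rw [this, hw, sub_self]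
    have h5 : x = a * y' + b * w := by linear_combination h4
    rw [h5]
    exact Ideal.add_mem _ (Ideal.mul_mem_right _ _ (Ideal.subset_span (by simp)))
      (Ideal.mul_mem_right _ _ (Ideal.subset_span (by simp)))
  · intro hx
    obtain ⟨y, z, rfl⟩ := Ideal.mem_span_pair.1 hx
    have ha : a ^ (i + 1) * b ^ j ∈ monIdeal a b T :=
      mon_mem (p := (i + 1, j)) fun h => by
        have := (hmax _ h).1
        simp at this
    have hb' : a ^ i * b ^ (j + 1) ∈ monIdeal a b T :=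
      mon_mem (p := (i, j + 1)) fun h => by
        have := (hmax _ h).2 rfl
        simp at this
    have : a ^ i * b ^ j * (y * a + z * b) = y * (a ^ (i + 1) * b ^ j) + z * (a ^ i * b ^ (j + 1)) := by
      ring
    rw [this]
    exact Ideal.add_mem _ (Ideal.mul_mem_left _ _ ha) (Ideal.mul_mem_left _ _ hb')

theorem monIdeal_insert {a b : A} {T : Set (ℕ × ℕ)} {p : ℕ × ℕ} (hp : p ∉ T) :
    monIdeal a b T = monIdeal a b (insert p T) ⊔ Ideal.span {a ^ p.1 * b ^ p.2} := by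
  apply le_antisymm
  · refine Ideal.span_le.2 ?_
    rintro _ ⟨q, hq, rfl⟩
    by_cases h : q = p
    · subst h
      exact Ideal.mem_sup_right (Ideal.subset_span rfl)
    · exact Ideal.mem_sup_left (mon_mem (by
        simp only [Set.mem_insert_iff, not_or]; exact ⟨h, hq⟩))
  · refine sup_le (Ideal.span_mono (Set.image_mono ?_)) ?_
    · exact Set.compl_subset_compl.2 (Set.subset_insert _ _)
    · rw [Ideal.span_singleton_le_iff_mem]
      exact mon_mem hp

end mon

section dim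

variable {k A : Type*} [Field k] [CommRing A] [Algebra k A]

theorem quot_step (I I' K : Ideal A) (m : A) (hI' : I' = I ⊔ Ideal.span {m})
    (hK : ∀ x, m * x ∈ I ↔ x ∈ K) (h1 : Module.Finite k (A ⧸ K))
    (h2 : Module.Finite k (A ⧸ I')) :
    Module.Finite k (A ⧸ I) ∧
      finrank k (A ⧸ I) = finrank k (A ⧸ K) + finrank k (A ⧸ I') := by
  have hII' : I ≤ I' := hI' ▸ le_sup_left
  let ψ : (A ⧸ I) →ₗ[k] (A ⧸ I') := (Ideal.Quotient.factorₐ k hII').toLinearMap
  have hψ : ∀ x : A, ψ (Ideal.Quotient.mk I x) = Ideal.Quotient.mk I' x := fun x => rfl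
  have hψs : Function.Surjective ψ := by
    intro y
    obtain ⟨x, rfl⟩ := Ideal.Quotient.mk_surjective y
    exact ⟨Ideal.Quotient.mk I x, rfl⟩
  let φ₀ : A →ₗ[k] (A ⧸ I) :=
    (Ideal.Quotient.mkₐ k I).toLinearMap ∘ₗ (LinearMap.mulLeft k m)
  have hφ₀ : ∀ x : A, φ₀ x = Ideal.Quotient.mk I (m * x) := fun x => rfl
  have hker₀ : ∀ x : A, φ₀ x = 0 ↔ x ∈ K := fun x => by
    rw [hφ₀, Ideal.Quotient.eq_zero_iff_mem, hK]
  have hrange : LinearMap.range φ₀ = LinearMap.ker ψ := by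
    ext y
    obtain ⟨x, rfl⟩ := Ideal.Quotient.mk_surjective y
    rw [LinearMap.mem_ker, hψ, Ideal.Quotient.eq_zero_iff_mem, hI', LinearMap.mem_range]
    constructor
    · rintro ⟨z, hz⟩
      rw [hφ₀, Ideal.Quotient.eq] at hz
      have : x = m * z - (m * z - x) := by ring
      rw [this]
      exact Ideal.sub_mem _ (Ideal.mem_sup_right
        (Ideal.mul_mem_right _ _ (Ideal.subset_span rfl))) (Ideal.mem_sup_left hz)
    · intro hx
      obtain ⟨u, hu, v, hv, huv⟩ := Submodule.mem_sup.1 hx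
      obtain ⟨z, rfl⟩ := Ideal.mem_span_singleton.1 hv
      refine ⟨z, ?_⟩
      rw [hφ₀, Ideal.Quotient.eq]
      have : m * z - x = - u := by rw [← huv]; ring
      rw [this]
      exact I.neg_mem hu
  let e : (A ⧸ LinearMap.ker φ₀) ≃ₗ[k] LinearMap.ker ψ :=
    (φ₀.quotKerEquivRange).trans (LinearEquiv.ofEq _ _ hrange)
  have hKer : LinearMap.ker φ₀ = K.restrictScalars k := by
    ext x; rw [LinearMap.mem_ker, hker₀]; rfl
  let e' : (A ⧸ K) ≃ₗ[k] LinearMap.ker ψ :=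
    (Submodule.Quotient.restrictScalarsEquiv k K).symm.trans
      ((Submodule.quotEquivOfEq _ _ hKer.symm).trans e)
  have f1 : Module.Finite k (LinearMap.ker ψ) := Module.Finite.equiv e'
  have f2 : Module.Finite k ((A ⧸ I) ⧸ LinearMap.ker ψ) :=
    Module.Finite.equiv (ψ.quotKerEquivOfSurjective hψs).symm
  have f3 : Module.Finite k (A ⧸ I) := Module.Finite.of_submodule_quotient (LinearMap.ker ψ)
  refine ⟨f3, ?_⟩
  have h := LinearMap.finrank_range_add_finrank_ker ψ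
  rw [LinearMap.range_eq_top.2 hψs, finrank_top] at h
  rw [← h, e'.finrank_eq, add_comm]

/-- A nonempty finite set of exponents has a lexicographically maximal element. -/
theorem exists_lexmax (T : Finset (ℕ × ℕ)) (hT : T.Nonempty) :
    ∃ p ∈ T, ∀ q ∈ T, q.1 ≤ p.1 ∧ (q.1 = p.1 → q.2 ≤ p.2) := by
  obtain ⟨p, hp, hmax⟩ := Finset.exists_max_image T (fun q => q.1) hT
  obtain ⟨p', hp', hmax'⟩ := Finset.exists_max_image (T.filter fun q => q.1 = p.1)
    (fun q => q.2) ⟨p, by simp [hp]⟩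
  rw [Finset.mem_filter] at hp'
  refine ⟨p', hp'.1, fun q hq => ⟨?_, fun h => ?_⟩⟩
  · rw [hp'.2]; exact hmax q hq
  · exact hmax' q (by rw [Finset.mem_filter]; exact ⟨hq, h.trans hp'.2⟩)

/-- **Colength of monomial ideals.** -/
theorem finrank_quot_mon {a b : A} (hb : ∀ x, b * x = 0 → x = 0)
    (hab : ∀ x, b ∣ a * x → b ∣ x) (hfin : Module.Finite k (A ⧸ Ideal.span {a, b}))
    (T : Finset (ℕ × ℕ)) (hT : IsLowerSet (T : Set (ℕ × ℕ))) :
    Module.Finite k (A ⧸ monIdeal a b (T : Set (ℕ × ℕ))) ∧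
      finrank k (A ⧸ monIdeal a b (T : Set (ℕ × ℕ))) =
        T.card * finrank k (A ⧸ Ideal.span {a, b}) := by
  classical
  induction hn : T.card generalizing T with
  | zero =>
    have h0 : T = ∅ := Finset.card_eq_zero.1 hn
    subst h0
    have htop : monIdeal a b ((∅ : Finset (ℕ × ℕ)) : Set (ℕ × ℕ)) = ⊤ := by
      rw [Ideal.eq_top_iff_one]
      simpa using mon_mem (a := a) (b := b) (T := ((∅ : Finset (ℕ × ℕ)) : Set (ℕ × ℕ)))
        (p := (0, 0)) (by simp)
    have : Subsingleton (A ⧸ monIdeal a b ((∅ : Finset (ℕ × ℕ)) : Set (ℕ × ℕ))) := by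
      rw [htop]; infer_instance
    refine ⟨inferInstance, ?_⟩
    rw [finrank_zero_of_subsingleton]; simp
  | succ n ih =>
    obtain ⟨⟨i, j⟩, hp, hmax⟩ := exists_lexmax T (Finset.card_pos.1 (by omega))
    set S : Finset (ℕ × ℕ) := T.erase (i, j) with hS
    have hSc : S.card = n := by rw [hS, Finset.card_erase_of_mem hp, hn]; rfl
    have hSl : IsLowerSet (S : Set (ℕ × ℕ)) := by
      intro q q' hle hq
      rw [hS, Finset.mem_coe, Finset.mem_erase] at hq ⊢
      refine ⟨?_, hT hle hq.2⟩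
      rintro rfl
      obtain ⟨h1, h2⟩ := hmax q hq.2
      have h3 : i ≤ q.1 := hle.1
      have h4 : j ≤ q.2 := hle.2
      have h5 : q.1 = i := le_antisymm h1 h3
      exact hq.1 (Prod.ext h5 (le_antisymm (h2 h5) h4))
    obtain ⟨g1, g2⟩ := ih S hSl hSc
    have hins : insert (i, j) (S : Set (ℕ × ℕ)) = (T : Set (ℕ × ℕ)) := by
      rw [hS, ← Finset.coe_insert, Finset.insert_erase hp]
    have hnot : (i, j) ∉ (S : Set (ℕ × ℕ)) := by simp [hS]
    have hI' := monIdeal_insert (a := a) (b := b) hnot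
    rw [hins] at hI'
    obtain ⟨f1, f2⟩ := quot_step (k := k) (monIdeal a b (T : Set (ℕ × ℕ)))
      (monIdeal a b (S : Set (ℕ × ℕ))) (Ideal.span {a, b}) (a ^ i * b ^ j) hI'
      (fun x => colon_aux hb hab hT hp hmax x) hfin g1
    refine ⟨f1, ?_⟩
    rw [f2, g2]; ring

end dim

section rel

variable {k R : Type*} [Field k] [CommRing R] [Algebra k R]

theorem map_monIdeal (J : Ideal R) (a b : R) (T : Set (ℕ × ℕ)) :
    (monIdeal a b T).map (Ideal.Quotient.mkₐ k J) =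
      monIdeal (Ideal.Quotient.mk J a) (Ideal.Quotient.mk J b) T := by
  rw [monIdeal, Ideal.map_span, ← Set.image_comp]
  rfl

/-- The quotient of `R ⧸ J` by the image of `I`. -/
noncomputable def quotEquiv (J I : Ideal R) :
    ((R ⧸ J) ⧸ I.map (Ideal.Quotient.mkₐ k J)) ≃ₐ[k] (R ⧸ (J ⊔ I)) :=
  DoubleQuot.quotQuotEquivQuotSupₐ k J I

/-- **Colength of monomial ideals, relative form**: `b` is a nonzerodivisor modulo `J` and `a` is
a nonzerodivisor modulo `J ⊔ (b)`. -/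
theorem finrank_quot_sup_mon {J : Ideal R} {a b : R} (hb : ∀ x, b * x ∈ J → x ∈ J)
    (hab : ∀ x, a * x ∈ J ⊔ Ideal.span {b} → x ∈ J ⊔ Ideal.span {b})
    (hfin : Module.Finite k (R ⧸ (J ⊔ Ideal.span {a, b})))
    (T : Finset (ℕ × ℕ)) (hT : IsLowerSet (T : Set (ℕ × ℕ))) :
    Module.Finite k (R ⧸ (J ⊔ monIdeal a b (T : Set (ℕ × ℕ)))) ∧
      finrank k (R ⧸ (J ⊔ monIdeal a b (T : Set (ℕ × ℕ)))) =
        T.card * finrank k (R ⧸ (J ⊔ Ideal.span {a, b})) := by
  have hdvd : ∀ x : R, Ideal.Quotient.mk J b ∣ Ideal.Quotient.mk J x ↔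
      x ∈ J ⊔ Ideal.span {b} := by
    intro x
    constructor
    · rintro ⟨y, hy⟩
      obtain ⟨y, rfl⟩ := Ideal.Quotient.mk_surjective y
      rw [← map_mul, Ideal.Quotient.eq] at hy
      have : x = (x - b * y) + b * y := by ring
      rw [this]
      exact Ideal.add_mem _ (Ideal.mem_sup_left hy) (Ideal.mem_sup_right
        (Ideal.mul_mem_right _ _ (Ideal.subset_span rfl)))
    · intro hx
      obtain ⟨u, hu, v, hv, rfl⟩ := Submodule.mem_sup.1 hx
      obtain ⟨z, rfl⟩ := Ideal.mem_span_singleton.1 hv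
      refine ⟨Ideal.Quotient.mk J z, ?_⟩
      rw [map_add, Ideal.Quotient.eq_zero_iff_mem.2 hu, zero_add, map_mul]
  have hb' : ∀ x : R ⧸ J, Ideal.Quotient.mk J b * x = 0 → x = 0 := by
    intro x hx
    obtain ⟨x, rfl⟩ := Ideal.Quotient.mk_surjective x
    rw [← map_mul, Ideal.Quotient.eq_zero_iff_mem] at hx
    exact Ideal.Quotient.eq_zero_iff_mem.2 (hb x hx)
  have hab' : ∀ x : R ⧸ J, Ideal.Quotient.mk J b ∣ Ideal.Quotient.mk J a * x →
      Ideal.Quotient.mk J b ∣ x := by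
    intro x hx
    obtain ⟨x, rfl⟩ := Ideal.Quotient.mk_surjective x
    rw [← map_mul, hdvd] at hx
    exact (hdvd x).2 (hab x hx)
  have hpair : (Ideal.span {a, b}).map (Ideal.Quotient.mkₐ k J) =
      Ideal.span {Ideal.Quotient.mk J a, Ideal.Quotient.mk J b} := by
    rw [Ideal.map_span, Set.image_pair]
    rfl
  let e₁ : ((R ⧸ J) ⧸ Ideal.span {Ideal.Quotient.mk J a, Ideal.Quotient.mk J b}) ≃ₐ[k]
      (R ⧸ (J ⊔ Ideal.span {a, b})) :=
    (Ideal.quotientEquivAlgOfEq k hpair.symm).trans (quotEquiv J (Ideal.span {a, b}))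
  let e₂ : ((R ⧸ J) ⧸ monIdeal (Ideal.Quotient.mk J a) (Ideal.Quotient.mk J b)
      (T : Set (ℕ × ℕ))) ≃ₐ[k] (R ⧸ (J ⊔ monIdeal a b (T : Set (ℕ × ℕ)))) :=
    (Ideal.quotientEquivAlgOfEq k (map_monIdeal J a b _).symm).trans (quotEquiv J _)
  have hf1 : Module.Finite k ((R ⧸ J) ⧸ Ideal.span
      {Ideal.Quotient.mk J a, Ideal.Quotient.mk J b}) :=
    Module.Finite.equiv e₁.symm.toLinearEquiv
  obtain ⟨g1, g2⟩ := finrank_quot_mon (k := k) hb' hab' hf1 T hT
  refine ⟨Module.Finite.equiv e₂.toLinearEquiv, ?_⟩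
  rw [← e₂.toLinearEquiv.finrank_eq, g2, e₁.toLinearEquiv.finrank_eq]

/-- The form with one relation `f`. -/
theorem finrank_quot_insert_mon {f a b : R} (hb : ∀ x, b * x ∈ Ideal.span {f} →
      x ∈ Ideal.span {f})
    (hab : ∀ x, a * x ∈ Ideal.span {f, b} → x ∈ Ideal.span {f, b})
    (hfin : Module.Finite k (R ⧸ Ideal.span {f, a, b}))
    (T : Finset (ℕ × ℕ)) (hT : IsLowerSet (T : Set (ℕ × ℕ))) :
    Module.Finite k (R ⧸ Ideal.span
        (insert f ((fun p : ℕ × ℕ => a ^ p.1 * b ^ p.2) '' (T : Set (ℕ × ℕ))ᶜ))) ∧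
      finrank k (R ⧸ Ideal.span
        (insert f ((fun p : ℕ × ℕ => a ^ p.1 * b ^ p.2) '' (T : Set (ℕ × ℕ))ᶜ))) =
        T.card * finrank k (R ⧸ Ideal.span {f, a, b}) := by
  have h1 : Ideal.span {f, b} = Ideal.span {f} ⊔ Ideal.span {b} := Ideal.span_insert _ _
  have h2 : Ideal.span {f, a, b} = Ideal.span {f} ⊔ Ideal.span {a, b} := Ideal.span_insert _ _
  have h3 : Ideal.span (insert f ((fun p : ℕ × ℕ => a ^ p.1 * b ^ p.2) ''
      (T : Set (ℕ × ℕ))ᶜ)) = Ideal.span {f} ⊔ monIdeal a b (T : Set (ℕ × ℕ)) :=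
    Ideal.span_insert _ _
  rw [h1] at hab
  rw [h2] at hfin ⊢
  rw [h3]
  exact finrank_quot_sup_mon hb hab hfin T hT

end rel

section count

/-- The exponents `(i, l)` with `i α + l β < N`. -/
noncomputable def tri (α β N : ℝ) : Finset (ℕ × ℕ) :=
  (Finset.range ⌈N / α⌉₊ ×ˢ Finset.range ⌈N / β⌉₊).filter
    fun p => (p.1 : ℝ) * α + (p.2 : ℝ) * β < N

theorem mem_tri {α β N : ℝ} (hα : 0 < α) (hβ : 0 < β) {p : ℕ × ℕ} :
    p ∈ tri α β N ↔ (p.1 : ℝ) * α + (p.2 : ℝ) * β < N := by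
  rw [tri, Finset.mem_filter, Finset.mem_product, Finset.mem_range, Finset.mem_range]
  refine ⟨fun h => h.2, fun h => ⟨⟨?_, ?_⟩, h⟩⟩
  · rw [Nat.lt_ceil, lt_div_iff₀ hα]
    have : 0 ≤ (p.2 : ℝ) * β := by positivity
    linarith
  · rw [Nat.lt_ceil, lt_div_iff₀ hβ]
    have : 0 ≤ (p.1 : ℝ) * α := by positivity
    linarith

theorem isLowerSet_tri {α β N : ℝ} (hα : 0 < α) (hβ : 0 < β) :
    IsLowerSet (tri α β N : Set (ℕ × ℕ)) := by
  intro p q hqp hp
  rw [Finset.mem_coe, mem_tri hα hβ] at hp ⊢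
  have h1 : (q.1 : ℝ) ≤ p.1 := by exact_mod_cast hqp.1
  have h2 : (q.2 : ℝ) ≤ p.2 := by exact_mod_cast hqp.2
  have h3 := mul_le_mul_of_nonneg_right h1 hα.le
  have h4 := mul_le_mul_of_nonneg_right h2 hβ.le
  linarith

theorem compl_tri {α β N : ℝ} (hα : 0 < α) (hβ : 0 < β) :
    (tri α β N : Set (ℕ × ℕ))ᶜ = {p | N ≤ (p.1 : ℝ) * α + (p.2 : ℝ) * β} := by
  ext p
  rw [Set.mem_compl_iff, Finset.mem_coe, mem_tri hα hβ, not_lt, Set.mem_ofPred_eq]

theorem sum_range_cast (L : ℕ) : (∑ l ∈ Finset.range L, (l : ℝ)) = (L : ℝ) * (L - 1) / 2 := by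
  induction L with
  | zero => simp
  | succ n ih => rw [Finset.sum_range_succ, ih]; push_cast; ring

theorem card_tri_le {α β N : ℝ} (hα : 0 < α) (hβ : 0 < β) :
    ((tri α β N).card : ℝ) ≤ (N + α + β / 2) ^ 2 / (2 * α * β) := by
  set L : ℕ := ⌈N / β⌉₊ with hL
  have hmaps : ∀ p ∈ tri α β N, p.2 ∈ Finset.range L := by
    intro p hp
    rw [tri, Finset.mem_filter, Finset.mem_product] at hp
    exact hp.1.2
  have hcard := Finset.card_eq_sum_card_fiberwise hmaps
  have hfib : ∀ l ∈ Finset.range L,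
      (((tri α β N).filter fun p => p.2 = l).card : ℝ) ≤ (N - l * β) / α + 1 := by
    intro l hl
    rw [Finset.mem_range, hL, Nat.lt_ceil, lt_div_iff₀ hβ] at hl
    have hpos : 0 ≤ (N - l * β) / α := div_nonneg (by linarith) hα.le
    have h1 : ((tri α β N).filter fun p => p.2 = l).card ≤ ⌈(N - l * β) / α⌉₊ := by
      have h2 : ((tri α β N).filter fun p => p.2 = l).card ≤
          (Finset.range ⌈(N - l * β) / α⌉₊).card := by
        refine Finset.card_le_card_of_injOn (fun p => p.1) ?_ ?_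
        · intro p hp
          rw [Finset.mem_coe, Finset.mem_filter, mem_tri hα hβ] at hp
          rw [Finset.mem_coe, Finset.mem_range, Nat.lt_ceil, lt_div_iff₀ hα, ← hp.2]
          linarith [hp.1]
        · intro p hp q hq h
          rw [Finset.mem_coe, Finset.mem_filter] at hp hq
          exact Prod.ext h (hp.2.trans hq.2.symm)
      simpa using h2
    calc (((tri α β N).filter fun p => p.2 = l).card : ℝ) ≤ (⌈(N - l * β) / α⌉₊ : ℝ) := by
          exact_mod_cast h1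
      _ ≤ (N - l * β) / α + 1 := (Nat.ceil_lt_add_one hpos).le
  have hsum : ((tri α β N).card : ℝ) ≤ ∑ l ∈ Finset.range L, ((N - l * β) / α + 1) := by
    rw [hcard]
    push_cast
    exact Finset.sum_le_sum hfib
  refine hsum.trans ?_
  have h5 : ∑ l ∈ Finset.range L, ((N - l * β) / α + 1) =
      (L * (N + α) - β * (L * (L - 1) / 2)) / α := by
    rw [← sum_range_cast, Finset.mul_sum, eq_div_iff hα.ne', Finset.sum_mul]
    have : (L : ℝ) * (N + α) = ∑ _l ∈ Finset.range L, (N + α) := by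
      rw [Finset.sum_const, Finset.card_range, nsmul_eq_mul]
    rw [this, ← Finset.sum_sub_distrib]
    refine Finset.sum_congr rfl fun l _ => ?_
    field_simp
    ring
  rw [h5, div_le_div_iff₀ hα (by positivity)]
  nlinarith [sq_nonneg (N + α + β / 2 - β * L), hα, hβ, mul_pos hα hβ]

/-- Asymptotic upper bound of the number of exponents. -/
theorem eventually_card_tri {α β : ℝ} (hα : 0 < α) (hβ : 0 < β) {ε : ℝ} (hε : 0 < ε) :
    ∀ᶠ N : ℝ in Filter.atTop, 2 * ((tri α β N).card : ℝ) ≤ (1 / (α * β) + ε) * N ^ 2 := by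
  have h1 : Filter.Tendsto (fun N : ℝ => (1 + (α + β / 2) / N) ^ 2 / (α * β)) Filter.atTop
      (nhds ((1 + 0) ^ 2 / (α * β))) :=
    ((tendsto_const_nhds.add (tendsto_const_nhds.div_atTop Filter.tendsto_id)).pow 2).div_const _
  have h2 : ∀ᶠ N : ℝ in Filter.atTop, (1 + (α + β / 2) / N) ^ 2 / (α * β) < 1 / (α * β) + ε := by
    refine h1.eventually (gt_mem_nhds ?_)
    rw [add_zero, one_pow]; linarith
  filter_upwards [h2, Filter.eventually_gt_atTop 0] with N hN hN0
  have h3 := card_tri_le (N := N) hα hβ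
  have h4 : 2 * ((N + α + β / 2) ^ 2 / (2 * α * β)) =
      (1 + (α + β / 2) / N) ^ 2 / (α * β) * N ^ 2 := by
    field_simp
    ring
  calc 2 * ((tri α β N).card : ℝ) ≤ 2 * ((N + α + β / 2) ^ 2 / (2 * α * β)) := by linarith
    _ = (1 + (α + β / 2) / N) ^ 2 / (α * β) * N ^ 2 := h4
    _ ≤ (1 / (α * β) + ε) * N ^ 2 := by
      exact mul_le_mul_of_nonneg_right hN.le (by positivity)

end count

end Vale.Agent.P298.H990
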